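import Vale.Agent.P025.R2.H816.J03
import Mathlib.RingTheory.LaurentSeries
import Mathlib.FieldTheory.RatFunc.IntermediateField

/-!
# P025 G-DISC: places from homomorphisms to Laurent series, poles of `T` (helper401)
-/

set_option linter.all false

open Vale.Agent.P019P IntermediateField

universe u v

namespace P025H401

section hom

variable {k : Type u} {K : Type v} [Field k] [Field K] [Algebra k K]

theorem ls_order_const (φ : K →ₐ[k] LaurentSeries k) (a : k) :
    (φ (algebraMap k K a)).order = 0 := by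
  have h : algebraMap k (LaurentSeries k) a = HahnSeries.C a := by
    rw [HahnSeries.algebraMap_apply', ← HahnSeries.ofPowerSeries_C]
    rfl
  rw [φ.commutes, h]
  exact HahnSeries.order_C (Γ := ℤ) (R := k) (r := a)

theorem ls_ne (φ : K →ₐ[k] LaurentSeries k) {y : K} (hy : y ≠ 0) : φ y ≠ 0 :=
  fun h => hy ((map_eq_zero φ).1 h)

theorem ls_mul (φ : K →ₐ[k] LaurentSeries k) {x y : K} (hx : x ≠ 0) (hy : y ≠ 0) :
    (φ (x * y)).order = (φ x).order + (φ y).order := by
  rw [map_mul, HahnSeries.order_mul (ls_ne φ hx) (ls_ne φ hy)]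

theorem ls_one (φ : K →ₐ[k] LaurentSeries k) : (φ 1).order = 0 := by
  have h := ls_mul φ (one_ne_zero (α := K)) (one_ne_zero (α := K))
  rw [one_mul] at h
  omega

theorem ls_inv (φ : K →ₐ[k] LaurentSeries k) {y : K} (hy : y ≠ 0) :
    (φ y⁻¹).order = -(φ y).order := by
  have h := ls_mul φ hy (inv_ne_zero hy)
  rw [mul_inv_cancel₀ hy, ls_one] at h
  omega

theorem ls_pow (φ : K →ₐ[k] LaurentSeries k) {y : K} (hy : y ≠ 0) (n : ℕ) :
    (φ (y ^ n)).order = n * (φ y).order := by
  induction n with
  | zero => rw [pow_zero, ls_one, Nat.cast_zero, zero_mul]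
  | succ n ih => rw [pow_succ, ls_mul φ (pow_ne_zero n hy) hy, ih, Nat.cast_succ, add_mul, one_mul]

theorem ls_zpow (φ : K →ₐ[k] LaurentSeries k) {y : K} (hy : y ≠ 0) (n : ℤ) :
    (φ (y ^ n)).order = n * (φ y).order := by
  cases n with
  | ofNat n => rw [Int.ofNat_eq_natCast, zpow_natCast, ls_pow φ hy]
  | negSucc n =>
    rw [zpow_negSucc, ls_inv φ (pow_ne_zero _ hy), ls_pow φ hy, Int.negSucc_eq, ← neg_mul]
    push_cast
    rfl

/-- the elements of nonnegative order form a valuation ring. -/
def lsRing (φ : K →ₐ[k] LaurentSeries k) : ValuationSubring K where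
  carrier := {y | y = 0 ∨ 0 ≤ (φ y).order}
  zero_mem' := Or.inl rfl
  one_mem' := Or.inr (ls_one φ).ge
  mul_mem' := by
    rintro x y hx hy
    by_cases h1 : x = 0
    · left; rw [h1, zero_mul]
    by_cases h2 : y = 0
    · left; rw [h2, mul_zero]
    right
    rw [ls_mul φ h1 h2]
    exact add_nonneg (hx.resolve_left h1) (hy.resolve_left h2)
  add_mem' := by
    rintro x y hx hy
    by_cases h1 : x = 0
    · rw [h1, zero_add]; exact hy
    by_cases h2 : y = 0
    · rw [h2, add_zero]; exact hx
    by_cases h3 : x + y = 0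
    · exact Or.inl h3
    right
    have h4 : φ x + φ y ≠ 0 := by rw [← map_add]; exact ls_ne φ h3
    have h5 := HahnSeries.min_order_le_order_add h4
    rw [map_add]
    exact (le_min (hx.resolve_left h1) (hy.resolve_left h2)).trans h5
  neg_mem' := by
    rintro x hx
    by_cases h1 : x = 0
    · left; rw [h1, neg_zero]
    right
    rw [map_neg, HahnSeries.order_neg]
    exact hx.resolve_left h1
  mem_or_inv_mem' := by
    intro x
    by_cases h1 : x = 0
    · exact Or.inl (Or.inl h1)
    rcases le_total 0 (φ x).order with h | h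
    · exact Or.inl (Or.inr h)
    · right; right
      rw [ls_inv φ h1]
      omega

theorem mem_lsRing (φ : K →ₐ[k] LaurentSeries k) (y : K) :
    y ∈ lsRing φ ↔ y = 0 ∨ 0 ≤ (φ y).order := Iff.rfl

/-- every `k`-homomorphism to Laurent series comes from a place (or is of order `0`). -/
theorem exists_place_of_hom [CFF k K] (φ : K →ₐ[k] LaurentSeries k) : ∃ (P : Plk k K) (e : ℕ),
    ∀ y : K, y ≠ 0 → (φ y).order = e * ord P y := by
  by_cases htop : lsRing φ = ⊤
  · obtain ⟨P⟩ := nonempty_Plk k K
    refine ⟨P, 0, fun y hy => ?_⟩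
    have h1 : ∀ z : K, z ≠ 0 → 0 ≤ (φ z).order := by
      intro z hz
      have h2 : z ∈ lsRing φ := by rw [htop]; exact ValuationSubring.mem_top z
      exact h2.resolve_left hz
    have h3 := h1 y hy
    have h4 := h1 _ (inv_ne_zero hy)
    rw [ls_inv φ hy] at h4
    rw [Nat.cast_zero, zero_mul]
    omega
  · let P : Plk k K := ⟨lsRing φ, fun a => Or.inr (ls_order_const φ a).ge, htop⟩
    have hmem : ∀ z : K, z ≠ 0 → (0 ≤ ord P z ↔ 0 ≤ (φ z).order) := by
      intro z hz
      constructor
      · intro h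
        exact ((mem_iff_ord P z).2 (Or.inr h) : z ∈ lsRing φ).resolve_left hz
      · intro h
        have h2 : z ∈ P.1 := Or.inr h
        exact ((mem_iff_ord P z).1 h2).resolve_left hz
    obtain ⟨π, hπ0, hπ⟩ := exists_unif P
    have hπφ : 0 ≤ (φ π).order := (hmem π hπ0).1 (by omega)
    refine ⟨P, (φ π).order.toNat, fun y hy => ?_⟩
    rw [Int.toNat_of_nonneg hπφ]
    have h1 : π ^ (-ord P y) ≠ 0 := zpow_ne_zero _ hπ0
    have hu : y * π ^ (-ord P y) ≠ 0 := mul_ne_zero hy h1
    have hord : ord P (y * π ^ (-ord P y)) = 0 := by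
      rw [ord_mul P hy h1, ord_zpow, hπ, mul_one, add_neg_cancel]
    have h2 := (hmem _ hu).1 hord.ge
    have h3 := (hmem _ (inv_ne_zero hu)).1 (by rw [ord_inv, hord, neg_zero])
    rw [ls_inv φ hu] at h3
    have h4 : (φ (y * π ^ (-ord P y))).order = 0 := by omega
    rw [ls_mul φ hy h1, ls_zpow φ hπ0] at h4
    rw [mul_comm]
    rw [neg_mul] at h4
    omega

end hom

section poles

variable {C : Type u} {K : Type v} [Field C] [Field K] [Algebra C K] [Algebra (RatFunc C) K]
  [IsScalarTower C (RatFunc C) K]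

theorem TT_ne_const (a : C) : algebraMap (RatFunc C) K RatFunc.X ≠ algebraMap C K a := by
  intro h
  rw [IsScalarTower.algebraMap_apply C (RatFunc C) K] at h
  have h1 := (algebraMap (RatFunc C) K).injective h
  rw [RatFunc.algebraMap_eq_C, ← RatFunc.algebraMap_X, ← RatFunc.algebraMap_C] at h1
  have h2 := RatFunc.algebraMap_injective C h1
  exact Polynomial.X_ne_C a h2

/-- the field generated by `T` is the image of `C(X)`. -/
theorem adjoin_TT :
    C⟮algebraMap (RatFunc C) K RatFunc.X⟯ = (IsScalarTower.toAlgHom C (RatFunc C) K).fieldRange := by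
  rw [AlgHom.fieldRange_eq_map, ← RatFunc.adjoin_X, IntermediateField.adjoin_map,
    Set.image_singleton]
  rfl

theorem finrank_TT :
    Module.finrank C⟮algebraMap (RatFunc C) K RatFunc.X⟯ K = Module.finrank (RatFunc C) K := by
  rw [adjoin_TT]
  symm
  refine Algebra.finrank_eq_of_equiv_equiv
    (AlgEquiv.ofInjectiveField (IsScalarTower.toAlgHom C (RatFunc C) K)).toRingEquiv
    (RingEquiv.refl K) ?_
  ext x
  rfl

variable [CFF C K]

/-- the poles of `T` are finite in number. -/
theorem finite_poles : Finite {P : Plk C K // ord P (algebraMap (RatFunc C) K RatFunc.X) < 0} := by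
  have h := zeros_finite (k := C) (nc_inv (TT_ne_const (C := C) (K := K)))
  refine Set.Finite.to_subtype (h.subset fun P hP => ?_)
  show 0 < ord P _
  rw [ord_inv]
  have : ord P (algebraMap (RatFunc C) K RatFunc.X) < 0 := hP
  omega

omit [Algebra (RatFunc C) K] [IsScalarTower C (RatFunc C) K] in
/-- the degree of the divisor of poles of `x` is the degree of `K` over `C(x)`. -/
theorem sum_poles_gen (x : K) (hxc : ∀ a : C, x ≠ algebraMap C K a)
    [Fintype {P : Plk C K // ord P x < 0}] :
    ∑ P : {P : Plk C K // ord P x < 0}, (-ord P.1 x).toNat = Module.finrank C⟮x⟯ K := by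
  classical
  have h1 := dg_pol (k := C) hxc
  rw [dg_eq_sum (S := (pol C x).support) fun P hP => Finsupp.notMem_support_iff.1 hP] at h1
  have hS : ∀ P : Plk C K, P ∈ (pol C x).support ↔ ord P x < 0 := by
    intro P
    rw [Finsupp.mem_support_iff, pol_apply]
    omega
  have h2 : ∑ P ∈ (pol C x).support, pol C x P =
      ∑ P : {P : Plk C K // ord P x < 0}, pol C x P.1 :=
    Finset.sum_subtype _ hS _
  rw [h2] at h1
  have h3 : ((∑ P : {P : Plk C K // ord P x < 0}, (-ord P.1 x).toNat : ℕ) : ℤ) =
      ∑ P : {P : Plk C K // ord P x < 0}, pol C x P.1 := by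
    rw [Nat.cast_sum]
    refine Finset.sum_congr rfl fun P _ => ?_
    have := P.2
    rw [pol_apply]
    omega
  rw [← h3] at h1
  exact_mod_cast h1

/-- the degree of the divisor of poles of `T` is the degree of `K` over `C(T)`. -/
theorem sum_poles [Fintype {P : Plk C K // ord P (algebraMap (RatFunc C) K RatFunc.X) < 0}] :
    ∑ P : {P : Plk C K // ord P (algebraMap (RatFunc C) K RatFunc.X) < 0},
      (-ord P.1 (algebraMap (RatFunc C) K RatFunc.X)).toNat = Module.finrank (RatFunc C) K := by
  rw [sum_poles_gen _ TT_ne_const, finrank_TT]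

end poles

end P025H401
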